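import Vale.Agent.P096.Defs

/-! Commutants in a representation. -/

namespace Vale.Agent.P096

variable {H : Type*} [NormedAddCommGroup H] [InnerProductSpace ℂ H] [CompleteSpace H]
  {L : Type*} [NormedAddCommGroup L] [InnerProductSpace ℂ L] [CompleteSpace L]

/-- The closed unit ball of the commutant of `ρ(M)` in `B(L)`. -/
def cball (ρ : (H →L[ℂ] H) →⋆ₐ[ℂ] (L →L[ℂ] L)) (M : VonNeumannAlgebra H) : Set (L →L[ℂ] L) :=
  {t | (∀ x ∈ M, t * ρ x = ρ x * t) ∧ ‖t‖ ≤ 1}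

/-- The Kadison-Kastler distance of the commutants of `ρ(M)` and `ρ(N)`. -/
noncomputable def kkc (ρ : (H →L[ℂ] H) →⋆ₐ[ℂ] (L →L[ℂ] L)) (M N : VonNeumannAlgebra H) : ℝ :=
  Metric.hausdorffDist (cball ρ M) (cball ρ N)

end Vale.Agent.P096
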