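import Vale.Agent.P096.Main
import Vale.Agent.P096.Defs2

/-! Continuity of commutants. -/

open Finset

namespace Vale.Agent.P096

open Vale.Agent.P104

variable {H : Type*} [NormedAddCommGroup H] [InnerProductSpace ℂ H] [CompleteSpace H]
  {L : Type*} [NormedAddCommGroup L] [InnerProductSpace ℂ L] [CompleteSpace L]
  {M N : VonNeumannAlgebra H}

/-- The constant. -/
noncomputable def cc : ℝ := 16 * Rp.cM 3 ^ 2

theorem cc_pos : 0 < cc := by unfold cc Rp.cM; positivity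

theorem cnear (ρ : (H →L[ℂ] H) →⋆ₐ[ℂ] (L →L[ℂ] L)) {γ : ℝ} (γ0 : 0 < γ)
    (h : ∀ y ∈ N, ∃ x ∈ M, ‖y - x‖ ≤ γ * ‖y‖) {t : L →L[ℂ] L} (ht : ∀ x ∈ M, t * ρ x = ρ x * t) :
    ∃ s, (∀ y ∈ N, s * ρ y = ρ y * s) ∧ ‖t - s‖ ≤ cc * γ * ‖t‖ := by
  letI : CStarAlgebra N.toStarSubalgebra := StarSubalgebra.cstarAlgebra _ (h_closed := closed N)
  let ι := ρ.comp N.toStarSubalgebra.subtype
  have hu : ∀ u ∈ unitary (L →L[ℂ] L), (∀ x ∈ M, u * ρ x = ρ x * u) →
      ∃ s, (∀ y ∈ N, s * ρ y = ρ y * s) ∧ ‖u - s‖ ≤ cc / 2 * γ := fun u hu hc => by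
    have u1 : ‖u‖ ≤ 1 := by
      have := CStarRing.norm_mul_mem_unitary (1 : L →L[ℂ] L) hu
      rw [one_mul] at this
      exact this.trans_le ContinuousLinearMap.norm_id_le
    let θ : N.toStarSubalgebra →⋆ₐ[ℂ] (L →L[ℂ] L) :=
      { toFun := fun y => star u * ι y * u
        map_one' := by simp [hu.1]
        map_mul' := fun a b => by
          simp only [map_mul, mul_assoc]
          rw [← mul_assoc u, hu.2, one_mul]
        map_zero' := by simp
        map_add' := fun a b => by simp [mul_add, add_mul]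
        commutes' := fun c => by simp [Algebra.algebraMap_eq_smul_one, hu.1]
        map_star' := fun a => by simp [map_star, mul_assoc] }
    obtain ⟨W, W1, W2⟩ := inter ι θ (γ := 2 * γ) (by positivity) fun y => by
      obtain ⟨x, hx, e⟩ := h y y.2
      have e1 : θ y - ι y = star u * ρ (y - x) * u - ρ (y - x) := by
        have : star u * ρ x * u = ρ x := by rw [mul_assoc, ← hc x hx, ← mul_assoc, hu.1, one_mul]
        rw [map_sub, mul_sub, sub_mul, this]
        change star u * ρ y * u - ρ y = _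
        abel
      have e2 := (NonUnitalStarAlgHom.norm_apply_le ρ (y - x)).trans e
      rw [e1]
      refine (norm_sub_le _ _).trans ?_
      rw [CStarRing.norm_mul_mem_unitary _ hu, CStarRing.norm_mem_unitary_mul _ (Unitary.star_mem hu)]
      change _ ≤ 2 * γ * ‖(y : H →L[ℂ] H)‖
      linarith
    refine ⟨u * (1 - ((2 * γ : ℝ) : ℂ) • W), fun y hy => ?_, ?_⟩
    · have := congrArg (u * ·) (W2 ⟨y, hy⟩)
      change u * (star u * ρ y * u * _) = u * (_ * ρ y) at this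
      rw [mul_assoc u, ← this, ← mul_assoc, ← mul_assoc, ← mul_assoc, hu.2, one_mul, mul_assoc]
    · rw [mul_sub, mul_one, sub_sub_cancel, CStarRing.norm_mem_unitary_mul _ hu, norm_smul,
        Complex.norm_real, Real.norm_of_nonneg (by positivity), cc]
      nlinarith
  let B : StarSubalgebra ℂ (L →L[ℂ] L) := StarSubalgebra.centralizer ℂ (ρ '' M)
  have hB : ∀ t, t ∈ B ↔ ∀ x ∈ M, t * ρ x = ρ x * t := fun t => by
    rw [StarSubalgebra.mem_centralizer_iff]
    refine ⟨fun k x hx => (k _ ⟨x, hx, rfl⟩).1.symm, ?_⟩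
    rintro k _ ⟨x, hx, rfl⟩
    exact ⟨(k x hx).symm, by rw [← map_star]; exact (k _ (star_mem hx)).symm⟩
  have cl : IsClosed (B : Set (L →L[ℂ] L)) := by
    rw [StarSubalgebra.coe_centralizer]
    exact Set.isClosed_centralizer _
  letI : CStarAlgebra B := StarSubalgebra.cstarAlgebra _ (h_closed := cl)
  obtain ⟨u, c, e, hc⟩ := CStarAlgebra.exists_sum_four_unitary (⟨t, (hB t).2 ht⟩ : B)
  choose s s1 s2 using fun i => hu (u i : B) ⟨congrArg Subtype.val (u i).2.1, congrArg Subtype.val (u i).2.2⟩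
    ((hB _).1 (u i : B).2)
  have e' : t = ∑ i, c i • ((u i : B) : L →L[ℂ] L) := by simpa using congrArg Subtype.val e
  refine ⟨∑ i, c i • s i, fun y hy => ?_, ?_⟩
  · simp only [sum_mul, mul_sum, smul_mul_assoc, mul_smul_comm, s1 _ y hy]
  · conv_lhs => rw [e']
    rw [← sum_sub_distrib]
    refine (norm_sum_le _ _).trans ((sum_le_card_nsmul _ _ (‖t‖ / 2 * (cc / 2 * γ)) fun i _ => ?_).trans
      (le_of_eq (by simp; ring)))
    rw [← smul_sub, norm_smul]
    exact mul_le_mul (hc i) (s2 i) (norm_nonneg _) (by positivity)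

theorem cnear1 (ρ : (H →L[ℂ] H) →⋆ₐ[ℂ] (L →L[ℂ] L)) {γ : ℝ} (γ0 : 0 < γ)
    (h : ∀ y ∈ N, ∃ x ∈ M, ‖y - x‖ ≤ γ * ‖y‖) {t : L →L[ℂ] L} (ht : t ∈ cball ρ M) :
    ∃ s ∈ cball ρ N, dist t s ≤ 2 * cc * γ := by
  obtain ⟨s, s1, s2⟩ := cnear ρ γ0 h ht.1
  have k0 : 0 < cc * γ := mul_pos cc_pos γ0
  have s3 : ‖t - s‖ ≤ cc * γ := s2.trans (mul_le_of_le_one_right k0.le ht.2)
  have s4 : ‖s‖ ≤ 1 + cc * γ := by
    have := norm_sub_le t (t - s)
    rw [sub_sub_cancel] at this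
    linarith [ht.2]
  rw [mul_assoc]
  generalize cc * γ = k at *
  have n1 : ‖(((1 + k)⁻¹ : ℝ) : ℂ) • s‖ ≤ 1 := by
    rw [norm_smul, Complex.norm_real, Real.norm_of_nonneg (by positivity), inv_mul_le_iff₀ (by positivity)]
    linarith
  refine ⟨(((1 + k)⁻¹ : ℝ) : ℂ) • s, ⟨fun y hy => by rw [smul_mul_assoc, mul_smul_comm, s1 y hy], n1⟩, ?_⟩
  have e : t - (((1 + k)⁻¹ : ℝ) : ℂ) • s = t - s + (k : ℂ) • ((((1 + k)⁻¹ : ℝ) : ℂ) • s) := by
    have : (1 : ℂ) + k ≠ 0 := by exact_mod_cast (by positivity : (1 : ℝ) + k ≠ 0)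
    rw [smul_smul, sub_add, sub_right_inj]
    nth_rewrite 2 [← one_smul ℂ s]
    rw [← sub_smul]
    congr 1
    push_cast
    field_simp
    ring
  rw [dist_eq_norm, e]
  refine (norm_add_le _ _).trans ?_
  rw [norm_smul (k : ℂ), Complex.norm_real, Real.norm_of_nonneg k0.le]
  nlinarith

theorem kkc_le (ρ : (H →L[ℂ] H) →⋆ₐ[ℂ] (L →L[ℂ] L)) (M N : VonNeumannAlgebra H) :
    kkc ρ M N ≤ 2 * cc * kk M N := by
  have c0 := cc_pos
  have k0 : 0 ≤ kk M N := Metric.hausdorffDist_nonneg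
  refine le_of_forall_pos_le_add fun ε hε => ?_
  have d : kk M N < kk M N + ε / (2 * cc) := lt_add_of_pos_right _ (by positivity)
  refine (Metric.hausdorffDist_le_of_mem_dist (r := 2 * cc * (kk M N + ε / (2 * cc))) (by positivity)
    (fun t ht => cnear1 ρ (by positivity) (fun y hy => near (Metric.hausdorffDist_comm.trans_lt d) hy) ht)
    (fun t ht => cnear1 ρ (by positivity) (fun y hy => near d hy) ht)).trans (le_of_eq ?_)
  field_simp

theorem kk_comm_le (M N : VonNeumannAlgebra H) : kk M.commutant N.commutant ≤ 2 * cc * kk M N := by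
  have e : ∀ P : VonNeumannAlgebra H, ball1 P.commutant = cball (StarAlgHom.id ℂ _) P := fun P =>
    Set.ext fun t => and_congr_left' (VonNeumannAlgebra.mem_commutant_iff.trans
      (forall₂_congr fun _ _ => eq_comm))
  rw [kk, e, e]
  exact kkc_le _ M N

theorem ConjNear.of_comm {ε : ℝ} (h : ConjNear M.commutant N.commutant ε) : ConjNear M N ε := by
  obtain ⟨u, hu, n, e⟩ := h
  refine ⟨u, hu, n, Set.Subset.antisymm ?_ fun y hy => ⟨star u * y * u, ?_, ?_⟩⟩
  · rintro _ ⟨x, hx, rfl⟩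
    rw [← N.commutant_commutant]
    refine VonNeumannAlgebra.mem_commutant_iff.2 fun g hg => ?_
    obtain ⟨c, hc, rfl⟩ := e.ge hg
    have := VonNeumannAlgebra.mem_commutant_iff.1 hc x hx
    simp only [mul_assoc]
    rw [← mul_assoc (star u) u, ← mul_assoc (star u) u, hu.1, one_mul, one_mul, ← mul_assoc c,
      ← mul_assoc x, this]
  · rw [← M.commutant_commutant]
    refine VonNeumannAlgebra.mem_commutant_iff.2 fun c hc => ?_
    have := VonNeumannAlgebra.mem_commutant_iff.1 (e.le ⟨c, hc, rfl⟩) y hy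
    have := congrArg (fun w => star u * w * u) this
    simp only [mul_assoc, hu.1, mul_one] at this
    rw [← mul_assoc (star u) u, hu.1, one_mul] at this
    simp only [mul_assoc]
    exact this.symm
  · simp only [mul_assoc, hu.2, mul_one]
    rw [← mul_assoc, hu.2, one_mul]

universe u

theorem linear (ε : ℝ) (hε : 0 < ε) :
    (∃ δ : ℝ, 0 < δ ∧ ∀ (H : Type u) [NormedAddCommGroup H] [InnerProductSpace ℂ H] [CompleteSpace H]
      (M N : VonNeumannAlgebra H), kk M N < δ → LinClose M N δ → ConjNear M N ε) ∧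
    ∀ K : ℝ, ∃ δ : ℝ, 0 < δ ∧ ∀ (H : Type u) [NormedAddCommGroup H] [InnerProductSpace ℂ H]
      [CompleteSpace H] (M N : VonNeumannAlgebra H), kk M N < δ → Compl M N K → ConjNear M N ε := by
  obtain ⟨δ, δ0, h⟩ := main.{u} ε hε
  refine ⟨⟨δ, δ0, fun H _ _ _ M N d ⟨T, hT⟩ => h H M N (fun y hy => near
    (Metric.hausdorffDist_comm.trans_lt d) hy) T (fun x hx => (hT x hx).1) fun x hx => (hT x hx).2⟩,
    fun K => ⟨δ / (|K| + 1), by positivity, fun H _ _ _ M N d ⟨E, h1, h2, h3⟩ => ?_⟩⟩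
  have k : δ / (|K| + 1) ≤ δ := div_le_self δ0.le (by linarith [abs_nonneg K])
  refine h H M N (fun y hy => near ((Metric.hausdorffDist_comm.trans_lt d).trans_le k) hy) E h1
    fun x hx => ?_
  obtain ⟨y, hy, e⟩ := near d hx
  have e1 : E x - x = E (x + -y) - (x - y) := by rw [map_add, h2 _ (neg_mem hy)]; abel
  have e2 := (h3 x hx _ (neg_mem hy)).trans
    (mul_le_mul_of_nonneg_right (le_abs_self K) (norm_nonneg _))
  rw [e1]
  refine (norm_sub_le _ _).trans ?_
  rw [← sub_eq_add_neg] at e2 ⊢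
  calc _ ≤ (|K| + 1) * ‖x - y‖ := by linarith
    _ ≤ (|K| + 1) * (δ / (|K| + 1) * ‖x‖) := by gcongr
    _ = δ * ‖x‖ := by field_simp

end Vale.Agent.P096
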