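import Mathlib

/-! Definitions used in the statement. -/

namespace Vale.Agent.P096

variable {H : Type*} [NormedAddCommGroup H] [InnerProductSpace ℂ H] [CompleteSpace H]

/-- The closed unit ball of `M`. -/
def ball1 (M : VonNeumannAlgebra H) : Set (H →L[ℂ] H) := {x | x ∈ M ∧ ‖x‖ ≤ 1}

/-- The Kadison-Kastler distance. -/
noncomputable def kk (M N : VonNeumannAlgebra H) : ℝ := Metric.hausdorffDist (ball1 M) (ball1 N)

/-- Some linear map sends `M` into `N` and moves every `x ∈ M` by at most `δ ‖x‖`. -/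
def LinClose (M N : VonNeumannAlgebra H) (δ : ℝ) : Prop :=
  ∃ T : (H →L[ℂ] H) →ₗ[ℂ] (H →L[ℂ] H), ∀ x ∈ M, T x ∈ N ∧ ‖T x - x‖ ≤ δ * ‖x‖

/-- There is a linear projection of `M + N` onto `N` of norm at most `K`. -/
def Compl (M N : VonNeumannAlgebra H) (K : ℝ) : Prop :=
  ∃ E : (H →L[ℂ] H) →ₗ[ℂ] (H →L[ℂ] H), (∀ x ∈ M, E x ∈ N) ∧ (∀ y ∈ N, E y = y) ∧
    ∀ x ∈ M, ∀ y ∈ N, ‖E (x + y)‖ ≤ K * ‖x + y‖

/-- `u M u* = N` for a unitary `u` with `‖u - 1‖ < ε`. -/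
def ConjNear (M N : VonNeumannAlgebra H) (ε : ℝ) : Prop :=
  ∃ u ∈ unitary (H →L[ℂ] H), ‖u - 1‖ < ε ∧
    (fun x => u * x * star u) '' (M : Set (H →L[ℂ] H)) = (N : Set (H →L[ℂ] H))

end Vale.Agent.P096
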