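import Vale.Agent.P082.Conv

/-! The multiplication of a von Neumann algebra is rigid, with absolute constants. -/

open scoped InnerProductSpace ComplexConjugate BigOperators ComplexOrder
open Finset Filter Topology

set_option linter.unusedSectionVars false

namespace Vale.Agent.P096

open Vale.Agent.P104 Vale.Agent.P082

variable {N : Type*} [CStarAlgebra N] [PartialOrder N] [StarOrderedRing N]
variable {H : Type*} [NormedAddCommGroup H] [InnerProductSpace ℂ H] [CompleteSpace H]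
variable {ρ : N →⋆ₐ[ℂ] (H →L[ℂ] H)} {𝒮 : Set (H →L[ℂ] H)}

theorem vanish_q (W : WS ρ 𝒮) {φ : List N → N} (h : Lin φ) {c : ℝ} (hC : 0 ≤ c)
    (hb : Bnd (fun _ => c) φ) (hc : Coc φ) (n : ℕ) :
    ∃ g, Lin g ∧ Bnd (fun n => (n + 3) * c) g ∧ ∀ x r, r.length = n → cob g (x :: r) = φ (x :: r) := by
  obtain ⟨z, hz, h1, h2⟩ := exists_split W
  obtain ⟨ψ, a1, a2, a3, a4⟩ := reduce_cb W hz h1 h (fun _ => hC) hb hc
  obtain ⟨R, hR⟩ := mean_cb W
  obtain ⟨ψ', b1, b2, b3⟩ := integrate (cls_cb W) hR a3 (C := fun _ => c) a4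
    (coc_sub (coc_smul hc hz) (coc_cob ψ))
  obtain ⟨R', hR'⟩ := mean_fin W hz.one_sub h2
  obtain ⟨ψ'', c1, c2, c3⟩ := integrate (cls_bn W) hR' h (C := fun _ => c)
    (fun r => ⟨mul_nonneg hC (nrm_nonneg r), fun x => by
      simpa [h.last, nrm_append, mul_assoc] using hb (r ++ [x])⟩) hc
  refine ⟨ψ + (-1 : N) ^ (n + 1) • (ψ' + ψ''), a1.add ((b1.add c1).mul _), fun l => ?_,
    fun x r hr => ?_⟩
  · have e : ‖((-1 : N) ^ (n + 1) • (ψ' + ψ'')) l‖ = ‖ψ' l + ψ'' l‖ := by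
      rcases neg_one_pow_eq_or N (n + 1) with e | e <;> simp only [e, Pi.smul_apply, smul_eq_mul,
        Pi.add_apply, one_mul, neg_mul, norm_neg]
    refine (norm_add_le _ _).trans ?_
    rw [e]
    have := norm_add_le (ψ' l) (ψ'' l)
    have i1 := a2 l
    have i2 := b2 l
    have i3 := c2 l
    beta_reduce at i1 i2 i3 ⊢
    linarith
  rw [cob_add, cob_smul _ ((Commute.neg_one_left x).pow_left _), cob_add, b3, c3, hr, ← mul_add,
    ← mul_assoc, ← pow_add, (Even.add_self _).neg_one_pow, one_mul, Pi.sub_apply, Pi.smul_apply,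
    smul_eq_mul, (hz.2 _).eq]
  noncomm_ring

/-- A function of three variables as a cochain. -/
def c3 (F : N → N → N → N) : List N → N
  | [x, y, z] => F x y z
  | _ => 0

/-- A function of two variables as a cochain. -/
def c2 (F : N → N → N) : List N → N
  | [x, y] => F x y
  | _ => 0

theorem lin0 : IsLinearMap ℂ fun _ : N => (0 : N) := (0 : N →ₗ[ℂ] N).isLinear

theorem van3 (W : WS ρ 𝒮) {F : N → N → N → N} (l1 : ∀ y z, IsLinearMap ℂ fun x => F x y z)
    (l2 : ∀ x z, IsLinearMap ℂ fun y => F x y z) (l3 : ∀ x y, IsLinearMap ℂ fun z => F x y z)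
    {c : ℝ} (hC : 0 ≤ c) (hb : ∀ x y z, ‖F x y z‖ ≤ c * (‖x‖ * ‖y‖ * ‖z‖))
    (hc : ∀ w x y z, w * F x y z = F (w * x) y z - (F w (x * y) z - (F w x (y * z) - F w x y * z))) :
    ∃ g : N → N → N, (∀ y, IsLinearMap ℂ fun x => g x y) ∧ (∀ x, IsLinearMap ℂ fun y => g x y) ∧
      (∀ x y, ‖g x y‖ ≤ 5 * c * (‖x‖ * ‖y‖)) ∧
      ∀ x y z, x * g y z - (g (x * y) z - (g x (y * z) - g x y * z)) = F x y z := by
  obtain ⟨g, g1, g2, g3⟩ := vanish_q W (φ := c3 F) (by
    rintro (_ | ⟨a, _ | ⟨b, _ | ⟨c, r⟩⟩⟩) (_ | ⟨a', _ | ⟨b', _ | ⟨c', r'⟩⟩⟩)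
    all_goals first | exact lin0 | exact l1 _ _ | exact l2 _ _ | exact l3 _ _ | skip
    all_goals cases r <;> exact lin0) hC (by
    rintro (_ | ⟨a, _ | ⟨b, _ | ⟨c, _ | ⟨d, r⟩⟩⟩⟩)
    pick_goal 4
    · simpa [c3, mul_assoc] using hb a b c
    all_goals exact norm_zero.trans_le (mul_nonneg hC (nrm_nonneg _))) (fun x r => by
    by_cases h : r.length = 3
    · obtain ⟨a, b, c, rfl⟩ := List.length_eq_three.1 h
      exact hc x a b c
    · have h2 : ∀ l : List N, l.length = r.length → c3 F l = 0 := by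
        rintro (_ | ⟨a, _ | ⟨b, _ | ⟨c, _ | ⟨d, r⟩⟩⟩⟩) hl
        pick_goal 4
        · exact (h hl.symm).elim
        all_goals rfl
      rw [h2 r rfl, mul_zero, DL_zero x r h2]) 2
  refine ⟨fun x y => g [x, y], fun y => g1 [] [y], fun x => g1 [x] [], fun x y => ?_,
    fun x y z => g3 x [y, z] rfl⟩
  have := g2 [x, y]
  norm_num at this
  exact this

theorem van2 (W : WS ρ 𝒮) {F : N → N → N} (l1 : ∀ y, IsLinearMap ℂ fun x => F x y)
    (l2 : ∀ x, IsLinearMap ℂ fun y => F x y) {c : ℝ} (hC : 0 ≤ c)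
    (hb : ∀ x y, ‖F x y‖ ≤ c * (‖x‖ * ‖y‖))
    (hc : ∀ x y z, x * F y z = F (x * y) z - (F x (y * z) - F x y * z)) :
    ∃ h : N →ₗ[ℂ] N, (∀ x, ‖h x‖ ≤ 4 * c * ‖x‖) ∧ ∀ x y, x * h y - (h (x * y) - h x * y) = F x y := by
  obtain ⟨g, g1, g2, g3⟩ := vanish_q W (φ := c2 F) (by
    rintro (_ | ⟨a, _ | ⟨b, r⟩⟩) (_ | ⟨a', _ | ⟨b', r'⟩⟩)
    all_goals first | exact lin0 | exact l1 _ | exact l2 _ | skip
    all_goals cases r <;> exact lin0) hC (by
    rintro (_ | ⟨a, _ | ⟨b, _ | ⟨c, r⟩⟩⟩)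
    pick_goal 3
    · simpa [c2, mul_assoc] using hb a b
    all_goals exact norm_zero.trans_le (mul_nonneg hC (nrm_nonneg _))) (fun x r => by
    by_cases h : r.length = 2
    · obtain ⟨a, b, rfl⟩ := List.length_eq_two.1 h
      exact hc x a b
    · have h2 : ∀ l : List N, l.length = r.length → c2 F l = 0 := by
        rintro (_ | ⟨a, _ | ⟨b, _ | ⟨c, r⟩⟩⟩) hl
        pick_goal 3
        · exact (h hl.symm).elim
        all_goals rfl
      rw [h2 r rfl, mul_zero, DL_zero x r h2]) 1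
  refine ⟨IsLinearMap.mk' (fun x => g [x]) (g1 [] []), fun x => ?_, fun x y => g3 x [y] rfl⟩
  have := g2 [x]
  norm_num at this
  exact this

variable {m : N →ₗ[ℂ] N →ₗ[ℂ] N} {η : ℝ}

theorem step (W : WS ρ 𝒮) (ma : ∀ x y z, m (m x y) z = m x (m y z))
    (ms : ∀ x y, star (m x y) = m (star y) (star x)) (η0 : 0 ≤ η) (η1 : η ≤ 1 / 2000)
    (mb : ∀ x y, ‖m x y - x * y‖ ≤ η * (‖x‖ * ‖y‖)) {φ : N →L[ℂ] N}
    (φs : ∀ x, star (φ x) = φ (star x)) (φb : ‖φ - 1‖ ≤ 16 * η) {a : ℝ} (a0 : 0 ≤ a) (a1 : a ≤ η)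
    (hd : ∀ x y, ‖m (φ x) (φ y) - φ (x * y)‖ ≤ a * (‖x‖ * ‖y‖)) :
    ∃ ψ : N →L[ℂ] N, (∀ x, star (ψ x) = ψ (star x)) ∧ ‖φ - ψ‖ ≤ 8 * a ∧
      ∀ x y, ‖m (ψ x) (ψ y) - ψ (x * y)‖ ≤ a / 2 * (‖x‖ * ‖y‖) := by
  have p1 : ∀ x, ‖φ x - x‖ ≤ 16 * η * ‖x‖ := fun x =>
    ((φ - 1).le_opNorm x).trans (by gcongr)
  have p2 : ∀ x, ‖φ x‖ ≤ 2 * ‖x‖ := fun x => by
    have := norm_add_le (φ x - x) x
    rw [sub_add_cancel] at this
    nlinarith [p1 x, norm_nonneg x]
  have q1 : ∀ x w, ‖x * w - m (φ x) w‖ ≤ 18 * η * (‖x‖ * ‖w‖) := fun x w => by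
    have e : x * w - m (φ x) w = -((φ x - x) * w) - (m (φ x) w - φ x * w) := by noncomm_ring
    rw [e]
    refine (norm_sub_le _ _).trans ?_
    rw [norm_neg]
    have i1 := (norm_mul_le _ w).trans (mul_le_mul_of_nonneg_right (p1 x) (norm_nonneg w))
    have i2 : ‖m (φ x) w - φ x * w‖ ≤ η * (2 * ‖x‖ * ‖w‖) := (mb _ _).trans (by gcongr; exact p2 x)
    linarith
  have q2 : ∀ w x, ‖w * x - m w (φ x)‖ ≤ 18 * η * (‖w‖ * ‖x‖) := fun w x => by
    have := q1 (star x) (star w)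
    rwa [← φs, ← ms, ← star_mul, ← star_sub, norm_star, norm_star, norm_star, mul_comm ‖x‖] at this
  let Δ : N → N → N := fun x y => m (φ x) (φ y) - φ (x * y)
  have d1 : ∀ y, IsLinearMap ℂ fun x => Δ x y := fun y =>
    ⟨fun a b => by simp only [Δ, map_add, add_mul, LinearMap.add_apply]; abel,
      fun c a => by simp [Δ, smul_sub]⟩
  have d2 : ∀ x, IsLinearMap ℂ fun y => Δ x y := fun x =>
    ⟨fun a b => by simp only [Δ, map_add, mul_add]; abel, fun c a => by simp [Δ, smul_sub]⟩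
  have d3 : ∀ x y, star (Δ x y) = Δ (star y) (star x) := fun x y => by
    simp only [Δ, star_sub, ms, φs, star_mul]
  obtain ⟨g, g1, g2, g3, g4⟩ := van3 W
    (F := fun x y z => x * Δ y z - (Δ (x * y) z - (Δ x (y * z) - Δ x y * z)))
    (fun y z => ⟨fun a b => by simp only [add_mul, (d1 _).map_add]; abel,
      fun c a => by simp only [smul_mul_assoc, (d1 _).map_smul, smul_sub]⟩)
    (fun y z => ⟨fun a b => by simp only [add_mul, mul_add, (d1 _).map_add, (d2 _).map_add]; abel,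
      fun c a => by
        simp only [smul_mul_assoc, mul_smul_comm, (d1 _).map_smul, (d2 _).map_smul, smul_sub]⟩)
    (fun y z => ⟨fun a b => by simp only [mul_add, (d2 _).map_add]; abel,
      fun c a => by simp only [mul_smul_comm, (d2 _).map_smul, smul_sub]⟩)
    (c := 36 * η * a) (by positivity) (fun x y z => by
      have e : x * Δ y z - (Δ (x * y) z - (Δ x (y * z) - Δ x y * z)) =
          (x * Δ y z - m (φ x) (Δ y z)) - (Δ x y * z - m (Δ x y) (φ z)) := by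
        simp only [Δ, map_sub, LinearMap.sub_apply, ma, mul_assoc]
        abel
      rw [e]
      refine (norm_sub_le _ _).trans ?_
      have i1 : _ ≤ 18 * η * (‖x‖ * (a * (‖y‖ * ‖z‖))) := (q1 x (Δ y z)).trans (by gcongr; exact hd y z)
      have i2 : _ ≤ 18 * η * (a * (‖x‖ * ‖y‖) * ‖z‖) := (q2 (Δ x y) z).trans (by gcongr; exact hd x y)
      linarith) (fun w x y z => by simp only [mul_sub, sub_mul, mul_assoc]; abel)
  obtain ⟨h, h1, h2⟩ := van2 W (F := fun x y => Δ x y - g x y)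
    (fun y => isLin_sub (d1 y) (g1 y)) (fun x => isLin_sub (d2 x) (g2 x)) (c := 2 * a)
    (by positivity) (fun x y => by
      refine (norm_sub_le _ _).trans ((add_le_add (hd x y) (g3 x y)).trans ?_)
      rw [← add_mul]
      gcongr
      nlinarith) (fun x y z => by
      have := g4 x y z
      rw [mul_sub, sub_mul]
      linear_combination (norm := abel) -this)
  let k : N →ₗ[ℂ] N :=
    { toFun := fun x => (1 / 2 : ℂ) • (h x + star (h (star x)))
      map_add' := fun x y => by simp only [star_add, map_add, smul_add]; abel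
      map_smul' := fun c x => by simp [smul_comm c] }
  have hk : ∀ x, k x = (1 / 2 : ℂ) • (h x + star (h (star x))) := fun _ => rfl
  have half : ∀ (u v : N) (c : ℝ), ‖u‖ ≤ c → ‖v‖ ≤ c → ‖(1 / 2 : ℂ) • (u + star v)‖ ≤ c :=
    fun u v c hu hv => by
      have := norm_add_le u (star v)
      rw [norm_star] at this
      rw [norm_smul]
      norm_num
      linarith
  have k1 : ∀ x, ‖k x‖ ≤ 8 * a * ‖x‖ := fun x =>
    half _ _ _ (by linarith [h1 x]) (by have := h1 (star x); rw [norm_star] at this; linarith)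
  have k2 : ∀ x y, Δ x y - (x * k y - (k (x * y) - k x * y)) =
      (1 / 2 : ℂ) • (g x y + star (g (star y) (star x))) := fun x y => by
    have e1 := h2 x y
    have e2 := congrArg star (h2 (star y) (star x))
    simp only [star_sub, star_mul, star_star, d3] at e2
    simp only [hk, star_mul, mul_smul_comm, smul_mul_assoc, mul_add, add_mul]
    linear_combination (norm := module) (-1 / 2 : ℂ) • e1 + (-1 / 2 : ℂ) • e2
  let k' : N →L[ℂ] N := k.mkContinuous _ k1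
  refine ⟨φ - k', fun x => ?_, ?_, fun x y => ?_⟩
  · change star (φ x - k x) = φ (star x) - k (star x)
    simp [φs, hk, add_comm]
  · rw [sub_sub_cancel]
    exact LinearMap.mkContinuous_norm_le _ (by positivity) _
  · change ‖m (φ x - k x) (φ y - k y) - (φ (x * y) - k (x * y))‖ ≤ _
    have e : m (φ x - k x) (φ y - k y) - (φ (x * y) - k (x * y)) =
        (Δ x y - (x * k y - (k (x * y) - k x * y))) + (x * k y - m (φ x) (k y)) +
          (k x * y - m (k x) (φ y)) + ((m (k x) (k y) - k x * k y) + k x * k y) := by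
      simp only [Δ, map_sub, LinearMap.sub_apply]
      abel
    rw [e, k2]
    have i0 := half (g x y) (g (star y) (star x)) _ (g3 x y) (by
      have := g3 (star y) (star x)
      rwa [norm_star, norm_star, mul_comm ‖y‖] at this)
    have i1 : _ ≤ 18 * η * (‖x‖ * (8 * a * ‖y‖)) := (q1 x (k y)).trans (by gcongr; exact k1 y)
    have i2 : _ ≤ 18 * η * (8 * a * ‖x‖ * ‖y‖) := (q2 (k x) y).trans (by gcongr; exact k1 x)
    have i3 : ‖k x‖ * ‖k y‖ ≤ 8 * a * ‖x‖ * (8 * a * ‖y‖) := by gcongr; exacts [k1 x, k1 y]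
    have i4 : ‖m (k x) (k y) - k x * k y‖ ≤ 1 * (8 * a * ‖x‖ * (8 * a * ‖y‖)) :=
      (mb _ _).trans (by gcongr; linarith)
    have i5 := (norm_mul_le (k x) (k y)).trans i3
    refine (norm_add_le _ _).trans ((add_le_add ((norm_add_le _ _).trans (add_le_add
      ((norm_add_le _ _).trans (add_le_add i0 i1)) i2))
      ((norm_add_le _ _).trans (add_le_add i4 i5))).trans ?_)
    have i6 : 0 ≤ a * (‖x‖ * ‖y‖) := by positivity
    have i7 : η * (a * (‖x‖ * ‖y‖)) ≤ 1 / 2000 * (a * (‖x‖ * ‖y‖)) := by gcongr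
    have i8 : a * (a * (‖x‖ * ‖y‖)) ≤ 1 / 2000 * (a * (‖x‖ * ‖y‖)) := by gcongr; linarith
    nlinarith

theorem rigid (W : WS ρ 𝒮) (ma : ∀ x y z, m (m x y) z = m x (m y z))
    (ms : ∀ x y, star (m x y) = m (star y) (star x)) (η0 : 0 ≤ η) (η1 : η ≤ 1 / 2000)
    (mb : ∀ x y, ‖m x y - x * y‖ ≤ η * (‖x‖ * ‖y‖)) :
    ∃ φ : N →L[ℂ] N, (∀ x, star (φ x) = φ (star x)) ∧ ‖φ - 1‖ ≤ 16 * η ∧
      ∀ x y, φ (x * y) = m (φ x) (φ y) := by
  let P : ℕ → (N →L[ℂ] N) → Prop := fun n φ => (∀ x, star (φ x) = φ (star x)) ∧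
    ‖φ - 1‖ ≤ 16 * η - 16 * (η / 2 ^ n) ∧
      ∀ x y, ‖m (φ x) (φ y) - φ (x * y)‖ ≤ η / 2 ^ n * (‖x‖ * ‖y‖)
  have st : ∀ n φ, P n φ → ∃ ψ, P (n + 1) ψ ∧ ‖φ - ψ‖ ≤ 8 * (η / 2 ^ n) := by
    rintro n φ ⟨h1, h2, h3⟩
    have a0 : 0 ≤ η / 2 ^ n := by positivity
    obtain ⟨ψ, k1, k2, k3⟩ := step W ma ms η0 η1 mb h1 (by linarith) a0
      (div_le_self η0 (one_le_pow₀ one_le_two)) h3
    have e : η / 2 ^ (n + 1) = η / 2 ^ n / 2 := by rw [pow_succ, div_div]
    refine ⟨ψ, ⟨k1, ?_, e ▸ k3⟩, k2⟩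
    have := norm_sub_le (φ - 1) (φ - ψ)
    rw [sub_sub_sub_cancel_left] at this
    rw [e]
    linarith
  choose! F F1 F2 using st
  let u : ℕ → N →L[ℂ] N := fun n => Nat.rec 1 (fun n φ => F n φ) n
  have hu : ∀ n, P n (u n) := fun n => by
    induction n with
    | zero => exact ⟨fun _ => rfl, by simp [u], fun x y => by simpa [u] using mb x y⟩
    | succ n ih => exact F1 n _ ih
  obtain ⟨φ, hφ⟩ := cauchySeq_tendsto_of_complete (cauchySeq_of_le_geometric_two (f := u)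
    (C := 16 * η) fun n => by
      rw [dist_eq_norm]
      exact (F2 n _ (hu n)).trans_eq (by ring))
  have hx : ∀ x, Tendsto (fun n => u n x) atTop (𝓝 (φ x)) := fun x =>
    ((ContinuousLinearMap.apply ℂ N x).continuous.tendsto φ).comp hφ
  refine ⟨φ, fun x => tendsto_nhds_unique (hx x).star ((hx (star x)).congr fun n => ((hu n).1 x).symm),
    le_of_tendsto' (hφ.sub_const 1).norm fun n => (hu n).2.1.trans (sub_le_self _ (by positivity)),
    fun x y => ?_⟩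
  let m' := m.mkContinuous₂ (η + 1) fun x y => by
    have := norm_add_le (m x y - x * y) (x * y)
    rw [sub_add_cancel] at this
    nlinarith [mb x y, norm_mul_le x y]
  have h1 : Tendsto (fun n => m (u n x) (u n y)) atTop (𝓝 (m (φ x) (φ y))) :=
    (m'.continuous₂.tendsto (φ x, φ y)).comp ((hx x).prodMk_nhds (hx y))
  have h2 : Tendsto (fun n : ℕ => η / 2 ^ n * (‖x‖ * ‖y‖)) atTop (𝓝 0) := by
    simpa using (tendsto_const_nhds.div_atTop
      (tendsto_pow_atTop_atTop_of_one_lt (one_lt_two (α := ℝ)))).mul_const (‖x‖ * ‖y‖)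
  exact (sub_eq_zero.1 (norm_le_zero_iff.1 (le_of_tendsto_of_tendsto' (h1.sub (hx _)).norm h2
    fun n => (hu n).2.2 x y))).symm

end Vale.Agent.P096
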