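import Vale.Agent.P096.Unit
import Vale.Agent.P096.Rigid

/-! Close von Neumann algebras that are linearly close are conjugate by a unitary close to one. -/

open scoped InnerProductSpace

namespace Vale.Agent.P096

open Vale.Agent.P104 Vale.Agent.P082

variable {H : Type*} [NormedAddCommGroup H] [InnerProductSpace ℂ H] [CompleteSpace H]

theorem closed (M : VonNeumannAlgebra H) : IsClosed (M.toStarSubalgebra : Set (H →L[ℂ] H)) := by
  rw [M.coe_toStarSubalgebra, ← M.centralizer_centralizer]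
  exact Set.isClosed_centralizer _

theorem near {M N : VonNeumannAlgebra H} {δ : ℝ}
    (h : Metric.hausdorffDist {x : H →L[ℂ] H | x ∈ M ∧ ‖x‖ ≤ 1} {y : H →L[ℂ] H | y ∈ N ∧ ‖y‖ ≤ 1} < δ)
    {x : H →L[ℂ] H} (hx : x ∈ M) : ∃ y ∈ N, ‖x - y‖ ≤ δ * ‖x‖ := by
  have b : ∀ P : VonNeumannAlgebra H, Bornology.IsBounded {x : H →L[ℂ] H | x ∈ P ∧ ‖x‖ ≤ 1} :=
    fun P => (Metric.isBounded_closedBall (x := 0) (r := 1)).subset fun x hx => by simpa using hx.2
  have f := Metric.hausdorffEDist_ne_top_of_nonempty_of_bounded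
    (s := {x : H →L[ℂ] H | x ∈ M ∧ ‖x‖ ≤ 1}) (t := {y : H →L[ℂ] H | y ∈ N ∧ ‖y‖ ≤ 1})
    ⟨0, zero_mem _, by simp⟩ ⟨0, zero_mem _, by simp⟩ (b M) (b N)
  rcases eq_or_ne x 0 with rfl | h0
  · exact ⟨0, zero_mem _, by simp⟩
  have n0 : (‖x‖ : ℂ) ≠ 0 := by exact_mod_cast norm_ne_zero_iff.2 h0
  have hm : (‖x‖ : ℂ)⁻¹ • x ∈ {x : H →L[ℂ] H | x ∈ M ∧ ‖x‖ ≤ 1} :=
    ⟨M.toStarSubalgebra.smul_mem hx _, by
      rw [norm_smul, norm_inv, Complex.norm_real, norm_norm]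
      exact inv_mul_le_one⟩
  obtain ⟨y, hy, d⟩ := Metric.exists_dist_lt_of_hausdorffDist_lt hm h f
  refine ⟨(‖x‖ : ℂ) • y, N.toStarSubalgebra.smul_mem hy.1 _, ?_⟩
  nth_rw 1 [← smul_inv_smul₀ n0 x]
  rw [← smul_sub, norm_smul, Complex.norm_real, norm_norm, mul_comm, ← dist_eq_norm]
  gcongr

set_option maxHeartbeats 1600000 in
theorem iso {M N : VonNeumannAlgebra H} {δ : ℝ} (δ0 : 0 ≤ δ) (δ1 : δ ≤ 1 / 16000)
    (h : ∀ y ∈ N, ∃ x ∈ M, ‖y - x‖ ≤ δ * ‖y‖) (T : (H →L[ℂ] H) →ₗ[ℂ] (H →L[ℂ] H))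
    (T1 : ∀ x ∈ M, T x ∈ N) (T2 : ∀ x ∈ M, ‖T x - x‖ ≤ δ * ‖x‖) :
    ∃ θ : M.toStarSubalgebra →⋆ₐ[ℂ] (H →L[ℂ] H), (∀ x, θ x ∈ N) ∧ (∀ y ∈ N, ∃ x, θ x = y) ∧
      ∀ x, ‖θ x - x‖ ≤ 300 * δ * ‖x‖ := by
  letI : CStarAlgebra M.toStarSubalgebra := StarSubalgebra.cstarAlgebra _ (h_closed := closed M)
  letI : PartialOrder M.toStarSubalgebra := CStarAlgebra.spectralOrder _
  haveI : StarOrderedRing M.toStarSubalgebra := CStarAlgebra.spectralOrderedRing _
  have W : WS M.toStarSubalgebra.subtype M.commutant :=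
    ⟨Subtype.val_injective, fun x s hs => (M.mem_commutant_iff.1 hs x x.2).symm,
      fun T hT => ⟨⟨T, by
        rw [M.mem_carrier, ← M.centralizer_centralizer, ← M.coe_commutant]
        exact hT⟩, rfl⟩, fun s hs => star_mem hs⟩
  let e : M.toStarSubalgebra →ₗ[ℂ] N.toStarSubalgebra :=
    { toFun := fun x => ⟨(1 / 2 : ℂ) • (T x + star (T (star x))),
        N.toStarSubalgebra.smul_mem (add_mem (T1 _ x.2) (star_mem (T1 _ (star_mem x.2)))) _⟩
      map_add' := fun x y => Subtype.ext (by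
        simp only [AddMemClass.coe_add, star_add, map_add, smul_add]; abel)
      map_smul' := fun c x => Subtype.ext (by simp [smul_comm c]) }
  have he : ∀ x, (e x : H →L[ℂ] H) = (1 / 2 : ℂ) • (T x + star (T (star x))) := fun _ => rfl
  have e1 : ∀ x, ‖(e x : H →L[ℂ] H) - x‖ ≤ δ * ‖x‖ := fun x => by
    have k : (e x : H →L[ℂ] H) - x = (1 / 2 : ℂ) • ((T x - x) + star (T (star x) - star (x : H →L[ℂ] H))) := by
      rw [he, star_sub, star_star]
      module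
    have i1 := T2 _ x.2
    have i2 := T2 _ (star_mem x.2)
    have i3 := norm_add_le (T x - x) (star (T (star x) - star (x : H →L[ℂ] H)))
    rw [norm_star] at i2 i3
    rw [k, norm_smul]
    change _ ≤ δ * ‖(x : H →L[ℂ] H)‖
    rw [show ‖(1 / 2 : ℂ)‖ = 1 / 2 by norm_num]
    linarith
  have e2 : ∀ x, star (e x) = e (star x) := fun x => Subtype.ext (by simp [he, add_comm])
  have e3 : ∀ x, ‖x‖ ≤ 2 * ‖e x‖ := fun x => by
    have := norm_sub_norm_le (x : H →L[ℂ] H) (e x)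
    rw [norm_sub_rev] at this
    change ‖x‖ - ‖e x‖ ≤ _ at this
    nlinarith [e1 x, norm_nonneg x]
  have e4 : ∀ x, ‖e x‖ ≤ 2 * ‖x‖ := fun x => by
    have := norm_sub_norm_le (e x : H →L[ℂ] H) x
    change ‖e x‖ - ‖x‖ ≤ _ at this
    nlinarith [e1 x, norm_nonneg x]
  have al : AntilipschitzWith 2 e := AddMonoidHomClass.antilipschitz_of_bound e (by simpa using e3)
  have e5 : Function.Surjective e := by
    by_contra hc
    obtain ⟨y, hy, d⟩ := riesz_lemma (F := LinearMap.range e)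
      (al.isClosed_range (e.mkContinuous 2 e4).uniformContinuous) (not_forall.1 hc)
      (r := 1 / 2) (by norm_num)
    obtain ⟨x, hx, k⟩ := h y y.2
    have i1 := d _ ⟨⟨x, hx⟩, rfl⟩
    have i2 := e1 ⟨x, hx⟩
    have i3 := norm_sub_le ((y : H →L[ℂ] H) - x) (e ⟨x, hx⟩ - x)
    have i4 := norm_sub_norm_le x y
    have i5 : 0 < ‖(y : H →L[ℂ] H)‖ := norm_pos_iff.2 fun h0 => hy ⟨0, by
      rw [map_zero]; exact Subtype.ext h0.symm⟩
    rw [sub_sub_sub_cancel_right] at i3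
    rw [norm_sub_rev] at i4
    change 1 / 2 * ‖(y : H →L[ℂ] H)‖ ≤ ‖(y : H →L[ℂ] H) - e ⟨x, hx⟩‖ at i1
    change _ ≤ δ * ‖x‖ at i2
    have i6 : δ * ‖x‖ ≤ 1 / 16000 * ‖x‖ := by gcongr
    have i7 : δ * ‖(y : H →L[ℂ] H)‖ ≤ 1 / 16000 * ‖(y : H →L[ℂ] H)‖ := by gcongr
    linarith
  let E := LinearEquiv.ofBijective e ⟨al.injective, e5⟩
  have hE : ∀ x, E x = e x := fun _ => rfl
  let m : M.toStarSubalgebra →ₗ[ℂ] M.toStarSubalgebra →ₗ[ℂ] M.toStarSubalgebra :=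
    ((LinearMap.mul ℂ N.toStarSubalgebra).compl₁₂ e e).compr₂ E.symm.toLinearMap
  have hm : ∀ x y, e (m x y) = e x * e y := fun x y => E.apply_symm_apply _
  obtain ⟨φ, p1, p2, p3⟩ := rigid W (m := m) (η := 8 * δ)
    (fun x y z => al.injective (by simp only [hm, mul_assoc]))
    (fun x y => al.injective (by rw [← e2, hm, hm, star_mul, e2, e2])) (by positivity) (by linarith)
    fun x y => by
      refine (e3 _).trans ?_
      rw [map_sub, hm]
      have k : ((e x * e y - e (x * y) : N.toStarSubalgebra) : H →L[ℂ] H) =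
          (e x - x) * e y + x * (e y - y) - (e (x * y) - (x * y : M.toStarSubalgebra)) := by
        simp only [AddSubgroupClass.coe_sub, MulMemClass.coe_mul]
        noncomm_ring
      change 2 * ‖((e x * e y - e (x * y) : N.toStarSubalgebra) : H →L[ℂ] H)‖ ≤ _
      rw [k]
      have i1 : ‖((e x : H →L[ℂ] H) - x) * e y‖ ≤ δ * ‖x‖ * (2 * ‖y‖) :=
        (norm_mul_le _ _).trans (mul_le_mul (e1 x) (e4 y) (norm_nonneg _) (by positivity))
      have i2 : ‖(x : H →L[ℂ] H) * (e y - y)‖ ≤ ‖x‖ * (δ * ‖y‖) :=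
        (norm_mul_le _ _).trans (mul_le_mul_of_nonneg_left (e1 y) (norm_nonneg _))
      have i3 : _ ≤ δ * (‖x‖ * ‖y‖) := (e1 (x * y)).trans (by gcongr; exact norm_mul_le x y)
      have i4 := (norm_sub_le _ _).trans (add_le_add ((norm_add_le _ _).trans (add_le_add i1 i2)) i3)
      linarith
  have p4 : Function.Surjective φ := by
    have i1 : IsUnit φ := by
      have := (Units.oneSub (1 - φ) (by rw [norm_sub_rev]; linarith)).isUnit
      simpa using this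
    obtain ⟨v, hv⟩ := i1.exists_right_inv
    exact fun x => ⟨v x, by rw [← ContinuousLinearMap.mul_apply, hv]; rfl⟩
  have p5 : ∀ x y, e (φ (x * y)) = e (φ x) * e (φ y) := fun x y => by rw [p3, hm]
  have p6 : e (φ 1) = 1 := by
    obtain ⟨x, hx⟩ := (e5.comp p4) 1
    have := p5 1 x
    rw [one_mul, show e (φ x) = 1 from hx, mul_one] at this
    exact this.symm
  refine ⟨{ toFun := fun x => e (φ x)
            map_one' := by rw [p6]; rfl
            map_mul' := fun x y => by rw [p5]; rfl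
            map_zero' := by simp
            map_add' := fun x y => by simp
            commutes' := fun r => by
              rw [Algebra.algebraMap_eq_smul_one, map_smul, map_smul, p6, Algebra.algebraMap_eq_smul_one]
              rfl
            map_star' := fun x => by rw [← p1, ← e2]; rfl }, fun x => (e (φ x)).2, fun y hy => ?_,
    fun x => ?_⟩
  · obtain ⟨x, hx⟩ := (e5.comp p4) ⟨y, hy⟩
    exact ⟨x, congrArg Subtype.val hx⟩
  · have i1 : ‖φ x - x‖ ≤ 16 * (8 * δ) * ‖x‖ := ((φ - 1).le_opNorm x).trans (by gcongr)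
    have i2 := norm_sub_norm_le (φ x) x
    have i3 := e1 (φ x)
    have i4 := norm_add_le ((e (φ x) : H →L[ℂ] H) - φ x) (φ x - x)
    rw [sub_add_sub_cancel] at i4
    change _ ≤ _ + ‖φ x - x‖ at i4
    have i5 : δ * ‖φ x‖ ≤ δ * (2 * ‖x‖) := by
      gcongr
      nlinarith [norm_nonneg x]
    have i6 : 0 ≤ δ * ‖x‖ := by positivity
    change ‖(e (φ x) : H →L[ℂ] H) - x‖ ≤ _
    linarith

universe u

theorem main (ε : ℝ) (hε : 0 < ε) : ∃ δ : ℝ, 0 < δ ∧ ∀ (H : Type u) [NormedAddCommGroup H]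
    [InnerProductSpace ℂ H] [CompleteSpace H] (M N : VonNeumannAlgebra H),
    (∀ y ∈ N, ∃ x ∈ M, ‖y - x‖ ≤ δ * ‖y‖) → ∀ T : (H →L[ℂ] H) →ₗ[ℂ] (H →L[ℂ] H),
      (∀ x ∈ M, T x ∈ N) → (∀ x ∈ M, ‖T x - x‖ ≤ δ * ‖x‖) →
      ∃ u ∈ unitary (H →L[ℂ] H), ‖u - 1‖ < ε ∧
        (fun x => u * x * star u) '' (M : Set (H →L[ℂ] H)) = N := by
  obtain ⟨γ, γ0, hγ⟩ := unitary_near.{u, u} ε hε
  refine ⟨min (1 / 16000) (γ / 300), by positivity, fun H _ _ _ M N h T T1 T2 => ?_⟩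
  obtain ⟨θ, h1, h2, h3⟩ := iso (by positivity) (min_le_left _ _) h T T1 T2
  letI : CStarAlgebra M.toStarSubalgebra := StarSubalgebra.cstarAlgebra _ (h_closed := closed M)
  obtain ⟨u, u1, u2, u3⟩ := hγ M.toStarSubalgebra H M.toStarSubalgebra.subtype θ fun x =>
    (h3 x).trans (by gcongr; linarith [min_le_right (1 / 16000) (γ / 300)])
  refine ⟨u, u1, u2, Set.Subset.antisymm ?_ fun y hy => ?_⟩
  · rintro _ ⟨x, hx, rfl⟩
    have := h1 ⟨x, hx⟩
    rwa [u3] at this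
  · obtain ⟨x, rfl⟩ := h2 y hy
    exact ⟨x, x.2, (u3 x).symm⟩

end Vale.Agent.P096
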