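import Vale.Agent.P104.Paulsen

/-! A star homomorphism close to another one is conjugate to it by a unitary close to one. -/

open scoped InnerProductSpace ComplexConjugate BigOperators ComplexOrder
open Finset

namespace Vale.Agent.P096

open Vale.Agent.P104

variable {A : Type*} [CStarAlgebra A]
variable {H : Type*} [NormedAddCommGroup H] [InnerProductSpace ℂ H] [CompleteSpace H]

theorem form {π : A →ₐ[ℂ] (H →L[ℂ] H)} {k : ℝ} (k0 : 0 ≤ k) (hk : ∀ a, ‖π a‖ ≤ k * ‖a‖) :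
    ∃ T : H →L[ℂ] H, ‖T‖ ≤ 1 ∧ (∀ x, ∃ t : ℝ, ⟪T x, x⟫_ℂ = t ∧ (4 * Rp.cM k ^ 2)⁻¹ * ‖x‖ ^ 2 ≤ t) ∧
      ∀ a, star (π a) * T = T * π (star a) := by
  have c0 : 0 < 4 * Rp.cM k ^ 2 := by unfold Rp.cM; positivity
  obtain ⟨l, h1, h2, h3⟩ := exists_form (π := π) c0 (by
    rintro _ _ ⟨ι, _, _, x, U, hU, rfl, rfl⟩
    simpa only [Prod.snd_sum, qf] using unif k0 hk hU x)
  have h0 : ∀ h, 0 ≤ l (qf h).1 := fun h => le_trans (by positivity) (h2 h)
  obtain ⟨T, hT⟩ := exists_op l h0 h1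
  have h4 : ∀ u ∈ unitary A, star (π u) * T = T * π (star u) := fun u hu => by
    have : star (π u) * T * π u = T := by
      refine ContinuousLinearMap.coe_injective ((ext_inner_map _ _).1 fun x => ?_)
      change ⟪star (π u) (T (π u x)), x⟫_ℂ = ⟪T x, x⟫_ℂ
      rw [ContinuousLinearMap.star_eq_adjoint, ContinuousLinearMap.adjoint_inner_left, hT, hT]
      refine congrArg _ (le_antisymm (h3 u hu x) ?_)
      have := h3 _ (Unitary.star_mem hu) (π u x)
      rwa [← mul_apply_eq_comp, ← map_mul, hu.1, map_one, one_apply_eq_self] at this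
    conv_rhs => rw [← this, mul_assoc, ← map_mul, hu.2, map_one, mul_one]
  refine ⟨T, ?_, fun x => ⟨_, hT x, h2 x⟩, fun a => ?_⟩
  · have p : 0 ≤ T := by
      rw [ContinuousLinearMap.nonneg_iff_isPositive, ContinuousLinearMap.isPositive_iff_complex]
      intro x
      rw [hT]
      exact ⟨rfl, h0 x⟩
    have q : T ≤ 1 := by
      rw [ContinuousLinearMap.le_def, ContinuousLinearMap.isPositive_iff_complex]
      intro x
      have : ⟪(1 - T) x, x⟫_ℂ = (‖x‖ ^ 2 - l (qf x).1 : ℝ) := by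
        rw [sub_apply, inner_sub_left, hT, one_apply_eq_self, inner_self_eq_norm_sq_to_K]
        simp
      rw [this]
      exact ⟨rfl, sub_nonneg.2 (h1 x)⟩
    exact (CStarAlgebra.norm_le_norm_of_nonneg_of_le p q).trans ContinuousLinearMap.norm_id_le
  · obtain ⟨u, c, rfl, -⟩ := CStarAlgebra.exists_sum_four_unitary a
    simp only [map_sum, map_smul, star_sum, star_smul, sum_mul, mul_sum, smul_mul_assoc,
      mul_smul_comm, h4 _ (u _).2]

theorem inter (ι θ : A →⋆ₐ[ℂ] (H →L[ℂ] H)) {γ : ℝ} (γ0 : 0 < γ) (h : ∀ x, ‖θ x - ι x‖ ≤ γ * ‖x‖) :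
    ∃ W : H →L[ℂ] H, ‖W‖ ≤ 4 * Rp.cM 3 ^ 2 ∧
      ∀ x, θ x * (1 - (γ : ℂ) • W) = (1 - (γ : ℂ) • W) * ι x := by
  have γ1 : (γ : ℂ) ≠ 0 := by exact_mod_cast γ0.ne'
  let D : A → H →L[ℂ] H := fun x => (γ : ℂ)⁻¹ • (θ x - ι x)
  have hD : ∀ x, ‖D x‖ ≤ ‖x‖ := fun x => by
    rw [norm_smul, norm_inv, Complex.norm_real, Real.norm_of_nonneg γ0.le, inv_mul_le_iff₀ γ0]
    exact h x
  let Q : A →ₐ[ℂ] Matrix (Fin 2) (Fin 2) (H →L[ℂ] H) :=
    { toFun := fun x => !![θ x, D x; 0, ι x]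
      map_one' := by ext1 i j; fin_cases i <;> fin_cases j <;> simp [D]
      map_mul' := fun x y => by
        ext1 i j
        fin_cases i <;> fin_cases j <;> simp [D, Matrix.mul_apply, Fin.sum_univ_two, mul_sub, sub_mul,
          smul_sub]
      map_zero' := by ext1 i j; fin_cases i <;> fin_cases j <;> simp [D]
      map_add' := fun x y => by
        ext1 i j
        fin_cases i <;> fin_cases j <;> simp [D, smul_sub]
        abel
      commutes' := fun r => by
        ext1 i j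
        fin_cases i <;> fin_cases j <;> simp [D, Matrix.algebraMap_matrix_apply,
          Algebra.algebraMap_eq_smul_one] }
  let P := (amp (d := Fin 2) (AlgHom.id ℂ (H →L[ℂ] H))).comp Q
  have hP : ∀ x, P x = mat !![θ x, D x; 0, ι x] := fun x => rfl
  obtain ⟨T, T1, T2, T3⟩ := form (π := P) (k := 3) (by norm_num) fun a => by
    refine ContinuousLinearMap.opNorm_le_bound _ (by positivity) fun v => ?_
    refine (sq_le_sq₀ (norm_nonneg _) (by positivity)).1 ?_
    rw [PiLp.norm_sq_eq_of_L2, Fin.sum_univ_two, hP, mat_apply, mat_apply]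
    have b : ∀ (S : H →L[ℂ] H) i, ‖S‖ ≤ ‖a‖ → ‖S (v i)‖ ≤ ‖a‖ * ‖v‖ := fun S i hS =>
      (S.le_opNorm _).trans (mul_le_mul hS (PiLp.norm_apply_le v i) (norm_nonneg _) (norm_nonneg _))
    have b1 := b _ 0 (NonUnitalStarAlgHom.norm_apply_le θ a)
    have b2 := b _ 1 (hD a)
    have b3 := b _ 1 (NonUnitalStarAlgHom.norm_apply_le ι a)
    have b4 := (norm_add_le (θ a (v 0)) (D a (v 1))).trans (add_le_add b1 b2)
    have b5 := pow_le_pow_left₀ (norm_nonneg _) b4 2
    have b6 := pow_le_pow_left₀ (norm_nonneg _) b3 2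
    simp only [Fin.sum_univ_two, Matrix.of_apply, Matrix.cons_val', Matrix.cons_val_zero,
      Matrix.cons_val_one, Matrix.cons_val_fin_one, zero_apply, zero_add]
    nlinarith [sq_nonneg (‖a‖ * ‖v‖)]
  let j : Fin 2 → H →L[ℂ] PiLp 2 (fun _ : Fin 2 => H) := fun i =>
    (PiLp.continuousLinearEquiv 2 ℂ _).symm.toContinuousLinearMap ∘L
      ContinuousLinearMap.single ℂ (fun _ : Fin 2 => H) i
  have j1 : ∀ i ξ, ‖j i ξ‖ = ‖ξ‖ := fun i ξ => by simp [j]
  let B : Fin 2 → H →L[ℂ] H := fun i => PiLp.proj 2 _ 0 ∘L T ∘L j i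
  have hB : ∀ i ξ, B i ξ = T (j i ξ) 0 := fun _ _ => rfl
  have k : ∀ x v, θ x (T v 0) = T (P x v) 0 := fun x v => by
    have := congrArg (fun S => S v 0) (T3 (star x))
    simp only [star_star, mul_apply_eq_comp] at this
    rw [← this, hP, mat_star, mat_apply]
    simp [Fin.sum_univ_two, Matrix.star_apply, map_star]
  have k0 : ∀ x, Commute (B 0) (θ x) := fun x => by
    ext ξ
    simp only [mul_apply_eq_comp, hB, k]
    refine congrArg (fun v => T v 0) ?_
    ext i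
    fin_cases i <;> simp [hP, mat_apply, j]
  have k1 : ∀ x, θ x * B 1 = B 0 * D x + B 1 * ι x := fun x => by
    ext ξ
    simp only [mul_apply_eq_comp, hB, k, add_apply]
    rw [← PiLp.add_apply, ← map_add]
    refine congrArg (fun v => T v 0) ?_
    ext i
    fin_cases i <;> simp [hP, mat_apply, j]
  have k2 : ∀ ξ, ⟪B 0 ξ, ξ⟫_ℂ = ⟪T (j 0 ξ), j 0 ξ⟫_ℂ := fun ξ => by
    simp [hB, PiLp.inner_apply, j]
  have c0 : 0 < 4 * Rp.cM 3 ^ 2 := by unfold Rp.cM; positivity
  generalize 4 * Rp.cM 3 ^ 2 = c at T2 c0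
  obtain ⟨m, b, -, -, e1, e2, e3, e4⟩ := inv_sqrt (B 0) _ (inv_pos.2 c0) (by
    rw [ContinuousLinearMap.le_def, ContinuousLinearMap.isPositive_iff_complex]
    intro x
    obtain ⟨t, t1, t2⟩ := T2 (j 0 x)
    have : ⟪(B 0 - algebraMap ℝ (H →L[ℂ] H) c⁻¹) x, x⟫_ℂ = (t - c⁻¹ * ‖x‖ ^ 2 : ℝ) := by
      rw [sub_apply, inner_sub_left, k2, t1, Algebra.algebraMap_eq_smul_one, smul_apply,
        one_apply_eq_self, ← Complex.coe_smul, inner_smul_left, inner_self_eq_norm_sq_to_K,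
        Complex.conj_ofReal]
      simp
    rw [this]
    exact ⟨rfl, sub_nonneg.2 (j1 0 x ▸ t2)⟩)
  have e5 : b * b * B 0 = 1 := by rw [← e1, mul_assoc, ← mul_assoc b m, e3, one_mul, e3]
  have e6 : B 0 * (b * b) = 1 := by rw [← e1, mul_assoc, ← mul_assoc m b, e2, one_mul, e2]
  refine ⟨b * b * B 1, ContinuousLinearMap.opNorm_le_bound _ c0.le fun ξ => ?_, fun x => ?_⟩
  · have n1 : ‖B 1 ξ‖ ≤ ‖ξ‖ := (PiLp.norm_apply_le _ 0).trans ((T.le_opNorm (j 1 ξ)).trans (by
      rw [j1]; exact mul_le_of_le_one_left (norm_nonneg _) T1))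
    set η := (b * b * B 1) ξ with hη
    have n2 : B 0 η = B 1 ξ := by
      rw [hη, ← mul_apply_eq_comp, ← mul_assoc, e6, one_mul]
    obtain ⟨t, t1, t2⟩ := T2 (j 0 η)
    rw [← k2, n2] at t1
    rw [j1, inv_mul_le_iff₀ c0] at t2
    have n3 : t ≤ ‖ξ‖ * ‖η‖ := by
      have := (Complex.re_le_norm _).trans (norm_inner_le_norm (𝕜 := ℂ) (B 1 ξ) η)
      rw [t1, Complex.ofReal_re] at this
      exact this.trans (by gcongr)
    by_contra hc
    have n4 := not_le.1 hc
    have n5 : 0 < ‖η‖ := lt_of_le_of_lt (by positivity) n4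
    nlinarith
  · have c1 : θ x * (b * b) = b * b * θ x := (((e4 _ (k0 x)).2.mul_left (e4 _ (k0 x)).2).eq).symm
    rw [mul_sub, sub_mul, mul_smul_comm, smul_mul_assoc, ← mul_assoc, c1, mul_assoc, k1, mul_add,
      ← mul_assoc, e5, one_mul, smul_add, smul_inv_smul₀ γ1, mul_assoc (b * b), mul_one, one_mul]
    abel

theorem polar {S : H →L[ℂ] H} {r : ℝ} (hr : r ≤ 1 / 4) (hS : ‖S - 1‖ ≤ r) :
    ∃ u ∈ unitary (H →L[ℂ] H), ‖u - 1‖ ≤ 10 * r ∧
      ∀ x y, y * S = S * x → star y * S = S * star x → y = u * x * star u := by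
  have r0 : 0 ≤ r := (norm_nonneg _).trans hS
  have o : ‖(1 : H →L[ℂ] H)‖ ≤ 1 := ContinuousLinearMap.norm_id_le
  have S1 : ‖S‖ ≤ 5 / 4 := by
    have := norm_add_le (S - 1) 1
    rw [sub_add_cancel] at this
    linarith
  set a := star S * S with ha
  have sa : IsSelfAdjoint a := IsSelfAdjoint.star_mul_self S
  have a1 : ‖a - 1‖ ≤ 3 * r := by
    have e : a - 1 = star (S - 1) * S + (S - 1) := by rw [star_sub, star_one]; noncomm_ring
    rw [e]
    refine (norm_add_le _ _).trans ?_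
    have := (norm_mul_le (star (S - 1)) S).trans (mul_le_mul (norm_star (S - 1)).le S1
      (norm_nonneg _) (norm_nonneg _))
    nlinarith [norm_nonneg (S - 1)]
  have sp : ∀ t ∈ spectrum ℝ a, |t - 1| ≤ 3 * r := fun t ht => by
    have h1 : t - 1 ∈ spectrum ℝ (a - 1) := by
      rw [spectrum.mem_iff, map_sub, map_one, sub_sub_sub_cancel_right]
      exact ht
    exact (spectrum.norm_le_norm_mul_of_mem h1).trans
      ((mul_le_of_le_one_right (norm_nonneg _) o).trans a1)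
  have sp' : ∀ t ∈ spectrum ℝ a, 1 / 2 ≤ √t := fun t ht =>
    Real.le_sqrt_of_sq_le (by linarith [(abs_le.1 (sp t ht)).1])
  have hc : ContinuousOn (fun t : ℝ => (√t)⁻¹) (spectrum ℝ a) :=
    Real.continuous_sqrt.continuousOn.inv₀ fun t ht => by linarith [sp' t ht]
  set b := cfc (fun t : ℝ => (√t)⁻¹) a with hb
  have sb : IsSelfAdjoint b := cfc_predicate _ _
  have b1 : b * a * b = 1 := by
    have e : cfc (fun t : ℝ => (√t)⁻¹ * t * (√t)⁻¹) a = b * a * b := by
      rw [cfc_mul (fun t : ℝ => (√t)⁻¹ * t) _ a (hc.mul continuousOn_id) hc,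
        cfc_mul _ (fun t : ℝ => t) a hc continuousOn_id, cfc_id' ℝ a]
    rw [← e, ← cfc_const_one ℝ a]
    refine cfc_congr fun t ht => ?_
    have h1 := sp' t ht
    have h2 : √t * √t = t := Real.mul_self_sqrt (by linarith [(abs_le.1 (sp t ht)).1])
    have h3 : √t ≠ 0 := by linarith
    field_simp
    nlinarith
  have b2 : ‖b - 1‖ ≤ 6 * r := by
    rw [hb, ← cfc_const_one ℝ a, ← cfc_sub _ _ a hc continuousOn_const]
    refine norm_cfc_le (by positivity) fun t ht => ?_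
    have h1 := sp' t ht
    have h0 := abs_le.1 (sp t ht)
    have h2 : √t * √t = t := Real.mul_self_sqrt (by linarith)
    generalize √t = s at h1 h2
    have h3 : s⁻¹ * s = 1 := inv_mul_cancel₀ (by linarith)
    have h4 : 0 < s⁻¹ := by positivity
    have h5 : s⁻¹ ≤ 2 := by nlinarith
    rw [Real.norm_eq_abs, abs_le]
    rcases le_total s 1 with h | h
    · constructor <;> nlinarith
    · constructor <;> nlinarith
  have u1 : star (S * b) * (S * b) = 1 := by
    rw [star_mul, sb.star_eq, mul_assoc, ← mul_assoc _ S, ← mul_assoc, b1]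
  have u2 : S * b * star (S * b) = 1 := by
    have i1 : IsUnit S := by
      have := (Units.oneSub (1 - S) (by rw [norm_sub_rev]; linarith)).isUnit
      simpa using this
    have i2 : IsUnit b := ⟨⟨b, a * b, by rw [← mul_assoc, b1], by
      calc a * b * b = b * a * b := by rw [((Commute.refl a).cfc_real _).eq]
        _ = 1 := b1⟩, rfl⟩
    obtain ⟨v, hv⟩ := (i1.mul i2).exists_right_inv
    have : star (S * b) = v := by rw [← mul_one (star _), ← hv, ← mul_assoc, u1, one_mul]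
    rw [this, hv]
  refine ⟨S * b, ⟨u1, u2⟩, ?_, fun x y h1 h2 => ?_⟩
  · have e : S * b - 1 = S * (b - 1) + (S - 1) := by noncomm_ring
    rw [e]
    refine (norm_add_le _ _).trans ?_
    have := (norm_mul_le S (b - 1)).trans (mul_le_mul S1 b2 (norm_nonneg _) (by norm_num))
    linarith
  · have h3 : Commute a x := by
      have := congrArg star h2
      rw [star_mul, star_mul, star_star, star_star] at this
      rw [Commute, SemiconjBy, ha, mul_assoc, ← h1, ← mul_assoc, this, mul_assoc]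
    rw [mul_assoc S, (h3.cfc_real _).eq, ← mul_assoc, ← h1, mul_assoc y, mul_assoc y, u2, mul_one]

theorem unitary_near (ε : ℝ) (hε : 0 < ε) : ∃ γ : ℝ, 0 < γ ∧
    ∀ (A : Type*) [CStarAlgebra A] (H : Type*) [NormedAddCommGroup H] [InnerProductSpace ℂ H]
      [CompleteSpace H] (ι θ : A →⋆ₐ[ℂ] (H →L[ℂ] H)), (∀ x, ‖θ x - ι x‖ ≤ γ * ‖x‖) →
      ∃ u ∈ unitary (H →L[ℂ] H), ‖u - 1‖ < ε ∧ ∀ x, θ x = u * ι x * star u := by
  have c0 : 0 < 4 * Rp.cM 3 ^ 2 := by unfold Rp.cM; positivity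
  have m0 : 0 < min (1 / 4) (ε / 20) := by positivity
  refine ⟨min (1 / 4) (ε / 20) / (4 * Rp.cM 3 ^ 2), by positivity, fun A _ H _ _ _ ι θ h => ?_⟩
  obtain ⟨W, h1, h2⟩ := inter ι θ (by positivity) h
  obtain ⟨u, u1, u2, u3⟩ := polar (S := 1 - ((min (1 / 4) (ε / 20) / (4 * Rp.cM 3 ^ 2) : ℝ) : ℂ) • W)
    (min_le_left _ (ε / 20)) (by
      rw [sub_sub_cancel_left, norm_neg, norm_smul, Complex.norm_real,
        Real.norm_of_nonneg (by positivity), div_mul_eq_mul_div, div_le_iff₀ c0]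
      gcongr)
  refine ⟨u, u1, u2.trans_lt ?_, fun x => u3 _ _ (h2 x) (by rw [← map_star, ← map_star, h2])⟩
  linarith [min_le_right (1 / 4) (ε / 20)]

end Vale.Agent.P096
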